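import Vale.Agent.P125.A32.Final32
import Vale.Agent.P125.A32.AllT

set_option linter.unusedSectionVars false
set_option linter.unusedVariables false

/-! # P125 (alpha) : the bound at ALL large times -/

namespace Vale.Agent.P125.A32

open Vale.Agent.P125.Dich
open scoped BigOperators

lemma NJ_add_le {n : ℕ} (u v : Fin n → ℝ) : NJ n (u + v) ≤ NJ n u + NJ n v := by
  obtain ⟨k, hk⟩ := exists_NJ (u + v)
  rw [hk, pre_add]
  exact (abs_add_le _ _).trans (add_le_add (abs_pre_le_NJ u k) (abs_pre_le_NJ v k))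

/-- **(alpha), all large times** -/
theorem alpha_all_times : ∀ ε : ℝ, 0 < ε → ∃ t0 : ℕ, 1 ≤ t0 ∧ ∀ t : ℕ, t0 ≤ t → RA NJ N1 t ε := by
  intro ε hε
  obtain ⟨t1, ht1, h1⟩ := alpha_main (ε / 4) (by positivity)
  set κ : ℝ := Real.sqrt ε / 2 with hκ
  have hκ0 : 0 < κ := by
    have := Real.sqrt_pos.2 hε
    positivity
  have hκ2 : κ ^ 2 = ε / 4 := by
    rw [hκ, div_pow, Real.sq_sqrt hε.le]
    norm_num
  obtain ⟨t2, ht2⟩ := exists_nat_ge ((t1 : ℝ) / κ)
  refine ⟨max t1 t2, le_trans ht1 (le_max_left _ _), ?_⟩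
  intro T hT n S _ _ μ P hP f
  have hT1 : t1 ≤ T := le_trans (le_max_left _ _) hT
  have hT2 : (t2 : ℝ) ≤ T := by exact_mod_cast le_trans (le_max_right _ _) hT
  have hT3 : (t1 : ℝ) ≤ κ * T := by
    have := (div_le_iff₀ hκ0).1 (ht2.trans hT2)
    linarith
  have h2 := h1 n S μ P hP f
  have h3 := AllT.all_large hP (NJ n) (N1 n) (fun v => NJ_nonneg v) (fun v w => NJ_add_le v w)
    (fun v => NJ_le_N1 v) f t1 ht1 κ hκ0
    (by
      unfold AllT.En
      rw [mul_pow, hκ2, pow_one]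
      exact h2) T hT1 hT3
  unfold AllT.En at h3
  rw [pow_one] at h3
  have e : (2 * κ * (T : ℝ)) ^ 2 = ε * (T : ℝ) ^ 2 := by
    have : (2 * κ * (T : ℝ)) ^ 2 = 4 * κ ^ 2 * (T : ℝ) ^ 2 := by ring
    rw [this, hκ2]
    ring
  rw [e] at h3
  exact h3

end Vale.Agent.P125.A32
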