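import Vale.Agent.P125.A32.Main32
import Vale.Agent.P125.A32.Top

set_option linter.unusedSectionVars false
set_option linter.unusedVariables false

/-!
# P125: (BV) for marked chains, and (alpha) in function form
-/

namespace Vale.Agent.P125.A32

open scoped BigOperators
open Vale.Agent.P125.Dich Vale.Agent.P125.Char Vale.Agent.P125.A32

variable {S M : Type} [Fintype S] [Fintype M]

lemma exists_min_list (L : List ℝ) (hne : L ≠ []) : ∃ mn ∈ L, ∀ x ∈ L, mn ≤ x := by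
  have hne' : L.toFinset.Nonempty := by
    obtain ⟨a, ha⟩ := List.exists_mem_of_ne_nil L hne
    exact ⟨a, List.mem_toFinset.2 ha⟩
  obtain ⟨a, ha, hmin⟩ := Finset.exists_min_image L.toFinset id hne'
  exact ⟨a, List.mem_toFinset.1 ha, fun x hx => hmin x (List.mem_toFinset.2 hx)⟩

lemma exists_max_list (L : List ℝ) (hne : L ≠ []) : ∃ mx ∈ L, ∀ x ∈ L, x ≤ mx := by
  have hne' : L.toFinset.Nonempty := by
    obtain ⟨a, ha⟩ := List.exists_mem_of_ne_nil L hne
    exact ⟨a, List.mem_toFinset.2 ha⟩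
  obtain ⟨a, ha, hmax⟩ := Finset.exists_max_image L.toFinset id hne'
  exact ⟨a, List.mem_toFinset.1 ha, fun x hx => hmax x (List.mem_toFinset.2 hx)⟩

/-- pointwise form of the deficit inequality with the weight `mu` -/
lemma pointwise_bv (N : M → ℝ) (Tn mu : List M → ℝ) (hN : ∀ m, 0 ≤ N m)
    (hT0 : ∀ l, 0 ≤ Tn l) (hT : ∀ l, Tn l ≤ (l.map N).sum)
    (hok : ∀ (l : List M) (mn mx : ℝ), mn ∈ l.map N → mx ∈ l.map N →
      (∀ x ∈ l.map N, mn ≤ x) → (∀ x ∈ l.map N, x ≤ mx) → 0 < mn → mx ≤ 2 * mn →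
      (l.map N).sum - Tn l ≤ mn / 4 → mn ≤ mu l)
    (l : List M) (hne : l ≠ []) :
    Tn l ^ 2 ≤ ((l.length : ℝ) - 1 / 16) * (l.map (fun m => N m ^ 2)).sum
      + ((l.length : ℝ) / 4) * mu l ^ 2 := by
  classical
  have hne' : l.map N ≠ [] := by
    intro h
    exact hne (List.map_eq_nil_iff.1 h)
  obtain ⟨mn, hmn, hmn'⟩ := exists_min_list (l.map N) hne'
  obtain ⟨mx, hmx, hmx'⟩ := exists_max_list (l.map N) hne'
  have hL : ∀ x ∈ l.map N, 0 ≤ x := by
    intro x hx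
    obtain ⟨m, _, rfl⟩ := List.mem_map.1 hx
    exact hN m
  have key := D67.deficit_pointwise (l.map N) hL mn mx (Tn l) hmn hmx hmn' hmx' (hT0 l) (hT l)
  have e1 : ((l.map N).map (fun x => x ^ 2)).sum = (l.map (fun m => N m ^ 2)).sum := by
    rw [List.map_map]
    rfl
  rw [e1, List.length_map] at key
  have hM : (0 : ℝ) ≤ (l.length : ℝ) := Nat.cast_nonneg _
  have h2 : mn ^ 2 * (if (0 < mn ∧ mx ≤ 2 * mn ∧ (l.map N).sum - Tn l ≤ mn / 4) then (1 : ℝ) else 0)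
      ≤ mu l ^ 2 := by
    split_ifs with h
    · have := hok l mn mx hmn hmx hmn' hmx' h.1 h.2.1 h.2.2
      rw [mul_one]
      exact pow_le_pow_left₀ h.1.le this 2
    · rw [mul_zero]
      exact sq_nonneg _
  have h3 := mul_le_mul_of_nonneg_left h2 hM
  linarith

/-- **(BV), abstract form.** -/
theorem bv_abstract (C : MChain S M) (N V : M → ℝ) (Tn mu sg : List M → ℝ) (cc : List M → ℕ)
    (P : Pot C mu cc sg) (hN : ∀ m, 0 ≤ N m)
    (hT0 : ∀ l, 0 ≤ Tn l) (hT : ∀ l, Tn l ≤ (l.map N).sum)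
    (hok : ∀ (l : List M) (mn mx : ℝ), mn ∈ l.map N → mx ∈ l.map N →
      (∀ x ∈ l.map N, mn ≤ x) → (∀ x ∈ l.map N, x ≤ mx) → 0 < mn → mx ≤ 2 * mn →
      (l.map N).sum - Tn l ≤ mn / 4 → mn ≤ mu l)
    (hb1 : ∀ m, mu [m] ^ 2 ≤ N m ^ 2)
    (hb2 : ∀ m, mu [m] ^ 2 * cc [m] ≤ N m ^ 2 + N m * V m) (L : ℕ) :
    C.E (2 ^ L) (fun l => Tn l ^ 2) ≤
      ((2 : ℝ) ^ L) ^ 2 * C.E 1 (fun l => (l.map (fun m => N m ^ 2)).sum)
        - ((2 : ℝ) ^ L / 16) * (C.E 1 (fun l => (l.map (fun m => N m ^ 2)).sum)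
          - 4 * (5 * C.E 1 (fun l => (l.map (fun m => N m ^ 2)).sum)
              + 4 * C.E 1 (fun l => (l.map (fun m => N m * V m)).sum)) / ((L : ℝ) + 1)) := by
  set EN2 := C.E 1 (fun l => (l.map (fun m => N m ^ 2)).sum) with hEN2
  set ENV := C.E 1 (fun l => (l.map (fun m => N m * V m)).sum) with hENV
  set Mr : ℝ := (2 : ℝ) ^ L with hMr
  have hMr0 : 0 < Mr := by positivity
  have hcast : ((2 ^ L : ℕ) : ℝ) = Mr := by
    rw [hMr]
    push_cast
    rfl
  -- step 1: expectation of the pointwise inequality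
  have h1 : C.E (2 ^ L) (fun l => Tn l ^ 2) ≤
      C.E (2 ^ L) (fun l => (Mr - 1 / 16) * (l.map (fun m => N m ^ 2)).sum
        + (Mr / 4) * mu l ^ 2) := by
    apply E_mono
    intro l hl
    have hne : l ≠ [] := by
      intro h
      rw [h] at hl
      have : 0 < 2 ^ L := by positivity
      simp at hl
      omega
    have := pointwise_bv N Tn mu hN hT0 hT hok l hne
    rw [hl, hcast] at this
    exact this
  rw [E_add, E_const_mul, E_const_mul, E_sum_marks, hcast, ← hEN2] at h1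
  -- step 2: the potential bound
  have h2 := Qm_pow_le C P L
  unfold Qm Phim at h2
  have h3 : C.E 1 (fun l => mu l ^ 2 * cc l) ≤ EN2 + ENV := by
    rw [hEN2, hENV, ← E_add]
    apply E_mono
    intro l hl
    obtain ⟨m, rfl⟩ := List.length_eq_one_iff.1 hl
    simpa using hb2 m
  have h4 : C.E 1 (fun l => mu l ^ 2) ≤ EN2 := by
    rw [hEN2]
    apply E_mono
    intro l hl
    obtain ⟨m, rfl⟩ := List.length_eq_one_iff.1 hl
    simpa using hb1 m
  have hL1 : (0 : ℝ) < (L : ℝ) + 1 := by positivity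
  have h5 : C.E (2 ^ L) (fun l => mu l ^ 2) ≤ (5 * EN2 + 4 * ENV) / ((L : ℝ) + 1) := by
    rw [le_div_iff₀ hL1]
    linarith
  have h6 : (Mr / 4) * C.E (2 ^ L) (fun l => mu l ^ 2)
      ≤ (Mr / 4) * ((5 * EN2 + 4 * ENV) / ((L : ℝ) + 1)) :=
    mul_le_mul_of_nonneg_left h5 (by positivity)
  calc C.E (2 ^ L) (fun l => Tn l ^ 2)
      ≤ (Mr - 1 / 16) * (Mr * EN2) + Mr / 4 * C.E (2 ^ L) (fun l => mu l ^ 2) := h1
    _ ≤ (Mr - 1 / 16) * (Mr * EN2) + (Mr / 4) * ((5 * EN2 + 4 * ENV) / ((L : ℝ) + 1)) := by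
        linarith
    _ = Mr ^ 2 * EN2 - (Mr / 16) * (EN2 - 4 * (5 * EN2 + 4 * ENV) / ((L : ℝ) + 1)) := by
        ring

/-- **(BV)** for the summing norm and the `ℓ_1` norm, on every marked reversible chain -/
theorem bv_statement : BVStatement NJ N1 := by
  intro S M _ _ C n w hw L
  have key := bv_abstract C (nW w) (fun m => N1 n (w m)) (fun l => NJ n (sm w l))
    (wt (gW w) (nW w)) (sgW (gW w) (nW w)) (cW (gW w) (nW w)) (pot_window C w hw)
    (nW_nonneg w) (fun l => NJ_nonneg _) (NJ_sm_le w) (hok_window w) (hb1_window w)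
    (hb2_window w) L
  have e1 : C.E 1 (fun l => (l.map (fun m => nW w m ^ 2)).sum)
      = C.E 1 (fun l => NJ n (sm w l) ^ 2) := by
    apply E_congr
    intro l hl
    obtain ⟨m, rfl⟩ := List.length_eq_one_iff.1 hl
    simp [sm, nW]
  have e2 : C.E 1 (fun l => (l.map (fun m => nW w m * N1 n (w m))).sum)
      = C.E 1 (fun l => NJ n (sm w l) * N1 n (sm w l)) := by
    apply E_congr
    intro l hl
    obtain ⟨m, rfl⟩ := List.length_eq_one_iff.1 hl
    simp [sm, nW]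
  rw [e1, e2] at key
  exact key

/-- **(alpha)**: the summing operators `ℓ_1^n → ℓ_∞^n` are uniformly sub-ballistic on stationary
reversible chains -/
theorem alpha_main : ∀ ε : ℝ, 0 < ε → ∃ t : ℕ, 1 ≤ t ∧ RA NJ N1 t ε :=
  alpha_of_BV (NJ := NJ) (N1 := N1) (fun n x => NJ_nonneg x) (fun n x => NJ_le_N1 x)
    (fun n => N1_zero) (fun n x y => N1_add x y) bv_statement

end Vale.Agent.P125.A32
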