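import Vale.Agent.P125.A32.Potential32
import Vale.Agent.P125.A32.Deficit67
import Vale.Agent.P125.Char.Conv_A
import Vale.Agent.P125.A32.Window
import Vale.Agent.P125.A32.AltVar

set_option linter.unusedSectionVars false
set_option linter.unusedVariables false

/-!
# P125, (BV): the concrete norms and the window structure on marked chains
-/

namespace Vale.Agent.P125.A32

open scoped BigOperators
open Vale.Agent.P125.Dich Vale.Agent.P125.Char Vale.Agent.P125.A32

/-- the sum of the first `j` coordinates -/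
def preN {n : ℕ} (v : Fin n → ℝ) (j : ℕ) : ℝ := ∑ i : Fin n, if i.val < j then v i else 0

/-- the sum of the first `k` coordinates, `k ≤ n` -/
def pre {n : ℕ} (v : Fin n → ℝ) (k : Fin (n + 1)) : ℝ := preN v k.val

/-- the summing norm: largest absolute value of a sum of first coordinates -/
noncomputable def NJ (n : ℕ) (v : Fin n → ℝ) : ℝ :=
  Finset.univ.sup' Finset.univ_nonempty (fun k : Fin (n + 1) => |pre v k|)

/-- the `ℓ_1` norm -/
def N1 (n : ℕ) (v : Fin n → ℝ) : ℝ := ∑ i, |v i|

section norms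

variable {n : ℕ}

lemma preN_add (u v : Fin n → ℝ) (j : ℕ) : preN (u + v) j = preN u j + preN v j := by
  unfold preN
  rw [← Finset.sum_add_distrib]
  refine Finset.sum_congr rfl fun i _ => ?_
  split_ifs <;> simp

lemma preN_neg (v : Fin n → ℝ) (j : ℕ) : preN (-v) j = - preN v j := by
  unfold preN
  rw [← Finset.sum_neg_distrib]
  refine Finset.sum_congr rfl fun i _ => ?_
  split_ifs <;> simp

lemma preN_zero (j : ℕ) : preN (0 : Fin n → ℝ) j = 0 := by
  unfold preN
  simp

lemma pre_add (u v : Fin n → ℝ) (k : Fin (n + 1)) : pre (u + v) k = pre u k + pre v k :=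
  preN_add u v _

lemma pre_neg (v : Fin n → ℝ) (k : Fin (n + 1)) : pre (-v) k = - pre v k := preN_neg v _

lemma pre_sm {M : Type} (w : M → Fin n → ℝ) (l : List M) (k : Fin (n + 1)) :
    pre (sm w l) k = (l.map (fun m => pre (w m) k)).sum := by
  induction l with
  | nil =>
    simp only [sm, List.map_nil, List.sum_nil]
    exact preN_zero _
  | cons m l ih =>
    have h1 : sm w (m :: l) = w m + sm w l := by simp [sm]
    rw [h1, pre_add, ih]
    simp

lemma abs_pre_le_NJ (v : Fin n → ℝ) (k : Fin (n + 1)) : |pre v k| ≤ NJ n v :=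
  Finset.le_sup' (fun k : Fin (n + 1) => |pre v k|) (Finset.mem_univ k)

lemma NJ_nonneg (v : Fin n → ℝ) : 0 ≤ NJ n v := (abs_nonneg _).trans (abs_pre_le_NJ v 0)

lemma exists_NJ (v : Fin n → ℝ) : ∃ k : Fin (n + 1), NJ n v = |pre v k| := by
  obtain ⟨k, _, hk⟩ := Finset.exists_mem_eq_sup' Finset.univ_nonempty
    (fun k : Fin (n + 1) => |pre v k|)
  exact ⟨k, hk⟩

lemma NJ_neg (v : Fin n → ℝ) : NJ n (-v) = NJ n v := by
  unfold NJ
  congr 1
  funext k
  rw [pre_neg, abs_neg]

lemma abs_preN_le_N1 (v : Fin n → ℝ) (j : ℕ) : |preN v j| ≤ N1 n v := by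
  unfold preN N1
  refine (Finset.abs_sum_le_sum_abs _ _).trans ?_
  refine Finset.sum_le_sum fun i _ => ?_
  split_ifs
  · exact le_refl _
  · rw [abs_zero]
    exact abs_nonneg _

lemma NJ_le_N1 (v : Fin n → ℝ) : NJ n v ≤ N1 n v := by
  obtain ⟨k, hk⟩ := exists_NJ v
  rw [hk]
  exact abs_preN_le_N1 v _

lemma N1_zero : N1 n (0 : Fin n → ℝ) = 0 := by
  unfold N1
  simp

lemma N1_add (u v : Fin n → ℝ) : N1 n (u + v) ≤ N1 n u + N1 n v := by
  unfold N1
  rw [← Finset.sum_add_distrib]
  exact Finset.sum_le_sum fun i _ => abs_add_le _ _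

lemma N1_nonneg (v : Fin n → ℝ) : 0 ≤ N1 n v := Finset.sum_nonneg fun i _ => abs_nonneg _

/-- the variation of the sums of first coordinates is the `ℓ_1` norm -/
lemma var_preN (v : Fin n → ℝ) :
    ∑ j ∈ Finset.range n, |preN v (j + 1) - preN v j| = N1 n v := by
  unfold N1
  rw [Finset.sum_range]
  refine Finset.sum_congr rfl fun j _ => ?_
  congr 1
  unfold preN
  rw [← Finset.sum_sub_distrib, Finset.sum_eq_single j]
  · simp
  · intro i _ hij
    have hne : i.val ≠ j.val := fun h => hij (Fin.ext h)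
    by_cases h1 : i.val < j.val
    · rw [if_pos h1, if_pos (by omega), sub_self]
    · rw [if_neg h1, if_neg (by omega), sub_self]
  · intro h
    exact absurd (Finset.mem_univ _) h

end norms

end Vale.Agent.P125.A32
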