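import Mathlib

/-!
# P125 (alpha) : the scalar iteration behind the corollary of (BV)

Definition-agnostic.  `R t a` stands for: for all reversible chains and all antisymmetric edge
functions `u`, `E |T_t u|_J ^ 2 ≤ a * t ^ 2 * E |u|_1 ^ 2`.
-/

namespace Vale.Agent.P125.A32

/-- scalar form of one application of (BV) to the `t`-step chain.
`X = E |T_{M t} u|_J^2`, `EN = E N^2`, `ENV = E [N V]`, `T = t^2 U`, `M = 2^L`. -/
theorem bv_to_step (X EN ENV T a M Lr : ℝ) (hM : 1 ≤ M) (hL : 0 < Lr) (ha : 0 < a) (hT : 0 ≤ T)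
    (hEN : EN ≤ a * T) (hENV : ENV ≤ Real.sqrt a * T)
    (hLr : 32 * (5 / 4 + 1 / Real.sqrt a) ≤ Lr)
    (hX : X ≤ M ^ 2 * EN - (M / 16) * (EN - 4 * (5 * EN + 4 * ENV) / Lr)) :
    X ≤ a * (1 - 1 / (32 * M)) * (M ^ 2 * T) := by
  have hs : 0 < Real.sqrt a := Real.sqrt_pos.2 ha
  have hss : Real.sqrt a * Real.sqrt a = a := Real.mul_self_sqrt ha.le
  have hM0 : 0 < M := by linarith
  -- the right side of (BV) is monotone in EN and ENV
  have hcoef : 0 ≤ M ^ 2 - M / 16 + (M / 16) * (20 / Lr) := by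
    have h1 : 0 ≤ (M / 16) * (20 / Lr) := by positivity
    nlinarith
  have hcoef2 : 0 ≤ (M / 16) * (16 / Lr) := by positivity
  have e1 : M ^ 2 * EN - (M / 16) * (EN - 4 * (5 * EN + 4 * ENV) / Lr)
      = (M ^ 2 - M / 16 + (M / 16) * (20 / Lr)) * EN + (M / 16) * (16 / Lr) * ENV := by
    field_simp
    ring
  have h2 : X ≤ (M ^ 2 - M / 16 + (M / 16) * (20 / Lr)) * (a * T)
      + (M / 16) * (16 / Lr) * (Real.sqrt a * T) := by
    rw [e1] at hX
    have := mul_le_mul_of_nonneg_left hEN hcoef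
    have := mul_le_mul_of_nonneg_left hENV hcoef2
    linarith
  -- (5/4 + 1/sqrt a)/Lr ≤ 1/32
  have h3 : (5 / 4 + 1 / Real.sqrt a) / Lr ≤ 1 / 32 := by
    rw [div_le_iff₀ hL]
    linarith
  have e2 : (M ^ 2 - M / 16 + (M / 16) * (20 / Lr)) * (a * T)
      + (M / 16) * (16 / Lr) * (Real.sqrt a * T)
      = a * T * M ^ 2 - a * T * M * (1 / 16 - (5 / 4 + 1 / Real.sqrt a) / Lr) := by
    have : Real.sqrt a * T = a * T * (1 / Real.sqrt a) := by
      field_simp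
      nlinarith [hss]
    rw [this]
    field_simp
    ring
  have e3 : a * (1 - 1 / (32 * M)) * (M ^ 2 * T) = a * T * M ^ 2 - a * T * M * (1 / 32) := by
    field_simp
  rw [e3]
  rw [e2] at h2
  have h4 : 0 ≤ a * T * M := by positivity
  have h5 : a * T * M * (1 / 32) ≤ a * T * M * (1 / 16 - (5 / 4 + 1 / Real.sqrt a) / Lr) :=
    mul_le_mul_of_nonneg_left (by linarith) h4
  linarith

/-- the iteration: a constant relative gain at a scale depending only on a lower bound of `a`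
forces `a` below every `ε`. -/
theorem iterate_abs (R : ℕ → ℝ → Prop)
    (hmono : ∀ (t : ℕ) (a b : ℝ), a ≤ b → R t a → R t b) (h1 : R 1 1)
    (hstep : ∀ (t L : ℕ) (a : ℝ), 1 ≤ t → 0 < a →
      32 * (5 / 4 + 1 / Real.sqrt a) ≤ (L : ℝ) + 1 → R t a →
        R (2 ^ L * t) (a * (1 - 1 / (32 * 2 ^ L)))) :
    ∀ ε : ℝ, 0 < ε → ∃ t : ℕ, 1 ≤ t ∧ R t ε := by
  intro ε hε
  obtain ⟨L, hL⟩ := exists_nat_ge (32 * (5 / 4 + 1 / Real.sqrt ε))
  set q : ℝ := 1 - 1 / (32 * 2 ^ L) with hq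
  have hpow : (0 : ℝ) < 32 * 2 ^ L := by positivity
  have hq1 : q < 1 := by
    have : 0 < 1 / (32 * (2 : ℝ) ^ L) := by positivity
    rw [hq]; linarith
  have hq0 : 0 ≤ q := by
    have h2 : (1 : ℝ) ≤ 2 ^ L := one_le_pow₀ (by norm_num)
    have : 1 / (32 * (2 : ℝ) ^ L) ≤ 1 := by
      rw [div_le_one hpow]; linarith
    rw [hq]; linarith
  have key : ∀ j : ℕ, ∃ t : ℕ, 1 ≤ t ∧ R t (max (q ^ j) ε) := by
    intro j
    induction j with
    | zero => exact ⟨1, le_refl _, hmono 1 1 _ (by simp) h1⟩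
    | succ j ih =>
      obtain ⟨t, ht, hR⟩ := ih
      have hapos : 0 < max (q ^ j) ε := lt_of_lt_of_le hε (le_max_right _ _)
      have hsq : Real.sqrt ε ≤ Real.sqrt (max (q ^ j) ε) := Real.sqrt_le_sqrt (le_max_right _ _)
      have hsε : 0 < Real.sqrt ε := Real.sqrt_pos.2 hε
      have hinv : 1 / Real.sqrt (max (q ^ j) ε) ≤ 1 / Real.sqrt ε :=
        one_div_le_one_div_of_le hsε hsq
      have hcond : 32 * (5 / 4 + 1 / Real.sqrt (max (q ^ j) ε)) ≤ (L : ℝ) + 1 := by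
        linarith
      have h := hstep t L _ ht hapos hcond hR
      refine ⟨2 ^ L * t, Nat.one_le_iff_ne_zero.2 (by positivity), hmono _ _ _ ?_ h⟩
      rw [← hq, max_mul_of_nonneg _ _ hq0, ← pow_succ]
      apply max_le_max (le_refl _)
      nlinarith
  obtain ⟨j, hj⟩ := exists_pow_lt_of_lt_one hε hq1
  obtain ⟨t, ht, hR⟩ := key j
  exact ⟨t, ht, by rwa [max_eq_right hj.le] at hR⟩

end Vale.Agent.P125.A32
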