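import Vale.Agent.P125.A32.Glue32

set_option linter.unusedSectionVars false
set_option linter.unusedVariables false

/-!
# P125, (BV) for marked chains and the concrete norms
-/

namespace Vale.Agent.P125.A32

open scoped BigOperators
open Vale.Agent.P125.Dich Vale.Agent.P125.Char Vale.Agent.P125.A32

variable {S M : Type} [Fintype S] [Fintype M] {n : ℕ}

/-- profile of a mark -/
def gW (w : M → Fin n → ℝ) (m : M) (k : Fin (n + 1)) : ℝ := pre (w m) k

/-- size of a mark -/
noncomputable def nW (w : M → Fin n → ℝ) (m : M) : ℝ := NJ n (w m)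

lemma hgW (w : M → Fin n → ℝ) : ∀ e k, |gW w e k| ≤ nW w e := fun e k => abs_pre_le_NJ _ _

lemma nW_nonneg (w : M → Fin n → ℝ) : ∀ e, 0 ≤ nW w e := fun e => NJ_nonneg _

lemma nW_inv (C : MChain S M) (w : M → Fin n → ℝ) (hw : ∀ m, w (C.inv m) = - w m) :
    ∀ e, nW w (C.inv e) = nW w e := by
  intro e
  unfold nW
  rw [hw, NJ_neg]

lemma gW_inv (C : MChain S M) (w : M → Fin n → ℝ) (hw : ∀ m, w (C.inv m) = - w m) :
    ∀ e k, gW w (C.inv e) k = - gW w e k := by
  intro e k
  unfold gW
  rw [hw, pre_neg]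

lemma okW_of_wt_pos (w : M → Fin n → ℝ) (l : List M) (h : 0 < wt (gW w) (nW w) l) :
    okW (gW w) (nW w) l := by
  by_contra hc
  unfold wt at h
  rw [if_neg hc] at h
  exact lt_irrefl _ h

/-- the window structure is a potential structure -/
theorem pot_window (C : MChain S M) (w : M → Fin n → ℝ) (hw : ∀ m, w (C.inv m) = - w m) :
    Pot C (wt (gW w) (nW w)) (cW (gW w) (nW w)) (sgW (gW w) (nW w)) where
  mu_nonneg := fun l => wt_nonneg l
  mu_left := fun l1 l2 h1 _ => wt_append_le_left (hgW w) l1 l2 h1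
  mu_right := fun l1 l2 _ h2 => wt_append_le_right (hgW w) l1 l2 h2
  c_left := fun l1 l2 h1 _ _ =>
    altLen_mono (Aset_append_left (hgW w) l1 l2 h1) (Bset_append_left (hgW w) l1 l2 h1)
  c_right := fun l1 l2 _ h2 _ =>
    altLen_mono (Aset_append_right (hgW w) l1 l2 h2) (Bset_append_right (hgW w) l1 l2 h2)
  sg_left := by
    intro l1 l2 h1 _ hpos hc
    have hok := okW_of_wt_pos w _ hpos
    have hok1 := okW_left (hgW w) l1 l2 h1 hok
    unfold sgW
    rw [altSig_eq_of_altLen_eq (Aset_append_left (hgW w) l1 l2 h1)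
      (Bset_append_left (hgW w) l1 l2 h1) (disjoint_AB (nW_nonneg w) l1 h1 hok1.1) hok.2.2 hc]
  sg_right := by
    intro l1 l2 _ h2 hpos hc
    have hok := okW_of_wt_pos w _ hpos
    have hok2 := okW_right (hgW w) l1 l2 h2 hok
    unfold sgW
    rw [altSig_eq_of_altLen_eq (Aset_append_right (hgW w) l1 l2 h2)
      (Bset_append_right (hgW w) l1 l2 h2) (disjoint_AB (nW_nonneg w) l2 h2 hok2.1) hok.2.2 hc]
  mu_rev := fun l => wt_rev C.inv (nW_inv C w hw) (gW_inv C w hw) l
  sg_pm := fun l => sgW_eq_or l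
  sg_rev := by
    intro l hl
    have h1 := wt_mul_sgW_rev C.inv (hgW w) (nW_inv C w hw) (gW_inv C w hw) l
    rw [wt_rev C.inv (nW_inv C w hw) (gW_inv C w hw) l] at h1
    have h2 : wt (gW w) (nW w) l * sgW (gW w) (nW w) ((l.map C.inv).reverse)
        = wt (gW w) (nW w) l * (- sgW (gW w) (nW w) l) := by
      rw [h1]
      ring
    exact mul_left_cancel₀ hl h2

/-- the norm of the sum along a window is at most the sum of the norms -/
lemma NJ_sm_le (w : M → Fin n → ℝ) (l : List M) : NJ n (sm w l) ≤ (l.map (nW w)).sum := by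
  obtain ⟨k, hk⟩ := exists_NJ (sm w l)
  rw [hk, pre_sm]
  induction l with
  | nil => simp
  | cons m l ih =>
    simp only [List.map_cons, List.sum_cons]
    refine (abs_add_le _ _).trans ?_
    have h1 : |pre (w m) k| ≤ nW w m := abs_pre_le_NJ _ _
    have h2 : ∀ l' : List M, |(l'.map (fun m => pre (w m) k)).sum| ≤ (l'.map (nW w)).sum := by
      intro l'
      induction l' with
      | nil => simp
      | cons m' l' ih' =>
        simp only [List.map_cons, List.sum_cons]
        refine (abs_add_le _ _).trans ?_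
        have h3 : |pre (w m') k| ≤ nW w m' := abs_pre_le_NJ _ _
        linarith
    linarith [h2 l]

lemma dA_eq (w : M → Fin n → ℝ) (l : List M) (k : Fin (n + 1)) :
    dA (gW w) (nW w) l k = (l.map (nW w)).sum - pre (sm w l) k := by
  rw [pre_sm]
  unfold dA gW
  induction l with
  | nil => simp
  | cons m l ih =>
    simp only [List.map_cons, List.sum_cons]
    linarith

lemma dB_eq (w : M → Fin n → ℝ) (l : List M) (k : Fin (n + 1)) :
    dB (gW w) (nW w) l k = (l.map (nW w)).sum + pre (sm w l) k := by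
  rw [pre_sm]
  unfold dB gW
  induction l with
  | nil => simp
  | cons m l ih =>
    simp only [List.map_cons, List.sum_cons]
    linarith

/-- an almost straight window with comparable norms has full weight -/
lemma hok_window (w : M → Fin n → ℝ) (l : List M) (mn mx : ℝ) (hmn : mn ∈ l.map (nW w))
    (hmx : mx ∈ l.map (nW w)) (hmn' : ∀ x ∈ l.map (nW w), mn ≤ x)
    (hmx' : ∀ x ∈ l.map (nW w), x ≤ mx) (h0 : 0 < mn) (h2 : mx ≤ 2 * mn)
    (hd : (l.map (nW w)).sum - NJ n (sm w l) ≤ mn / 4) : mn ≤ wt (gW w) (nW w) l := by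
  have hne : l.map (nW w) ≠ [] := List.ne_nil_of_mem hmn
  have e1 : mnW (nW w) l = mn := by
    unfold mnW
    exact le_antisymm (mnL_le _ _ hmn) (hmn' _ (mnL_mem _ hne))
  have e2 : mxW (nW w) l = mx := by
    unfold mxW
    exact le_antisymm (hmx' _ (mxL_mem _ hne)) (le_mxL _ _ hmx)
  have hok : okW (gW w) (nW w) l := by
    refine ⟨by rw [e1]; exact h0, by rw [e1, e2]; exact h2, ?_⟩
    obtain ⟨k, hk⟩ := exists_NJ (sm w l)
    refine ⟨k, ?_⟩
    rcases le_total 0 (pre (sm w l) k) with hs | hs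
    · apply Finset.mem_union_left
      unfold Aset
      refine Finset.mem_filter.2 ⟨Finset.mem_univ _, ?_⟩
      rw [dA_eq, e1]
      rw [hk, abs_of_nonneg hs] at hd
      exact hd
    · apply Finset.mem_union_right
      unfold Bset
      refine Finset.mem_filter.2 ⟨Finset.mem_univ _, ?_⟩
      rw [dB_eq, e1]
      rw [hk, abs_of_nonpos hs] at hd
      linarith
  unfold wt
  rw [if_pos hok, e1]

lemma wt_single_le (w : M → Fin n → ℝ) (m : M) : wt (gW w) (nW w) [m] ≤ nW w m := by
  unfold wt
  split_ifs with h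
  · exact le_of_eq rfl
  · exact nW_nonneg w m

lemma hb1_window (w : M → Fin n → ℝ) (m : M) : wt (gW w) (nW w) [m] ^ 2 ≤ nW w m ^ 2 :=
  pow_le_pow_left₀ (wt_nonneg _) (wt_single_le w m) 2

/-- single mark: the alternation count is controlled by the `ℓ_1` norm -/
lemma hb2_window (w : M → Fin n → ℝ) (m : M) :
    wt (gW w) (nW w) [m] ^ 2 * (cW (gW w) (nW w) [m] : ℝ) ≤
      nW w m ^ 2 + nW w m * N1 n (w m) := by
  have hN := nW_nonneg w m
  have hV := N1_nonneg (w m)
  by_cases h : okW (gW w) (nW w) [m]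
  · have e0 : mnW (nW w) [m] = nW w m := rfl
    have e1 : wt (gW w) (nW w) [m] = nW w m := by
      unfold wt
      rw [if_pos h]
      rfl
    rw [e1]
    have hvar := altLen_var (Aset (gW w) (nW w) [m]) (Bset (gW w) (nW w) [m])
      (fun k : Fin (n + 1) => k.val) (fun a b hab => hab) n
      (fun x _ => Nat.lt_succ_iff.1 x.isLt) (preN (w m)) (3 / 4 * nW w m)
      (by
        intro x hx
        have h1 := (Finset.mem_filter.1 hx).2
        rw [e0] at h1
        unfold dA gW pre at h1
        simp only [List.map_cons, List.map_nil, List.sum_cons, List.sum_nil, add_zero] at h1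
        linarith)
      (by
        intro x hx
        have h1 := (Finset.mem_filter.1 hx).2
        rw [e0] at h1
        unfold dB gW pre at h1
        simp only [List.map_cons, List.map_nil, List.sum_cons, List.sum_nil, add_zero] at h1
        linarith)
      h.2.2
    rw [var_preN] at hvar
    have hc : (cW (gW w) (nW w) [m] : ℝ) = (altLen (Aset (gW w) (nW w) [m])
      (Bset (gW w) (nW w) [m]) : ℝ) := rfl
    rw [hc]
    set c : ℝ := (altLen (Aset (gW w) (nW w) [m]) (Bset (gW w) (nW w) [m]) : ℝ) with hcdef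
    set N := nW w m with hNdef
    have h3 : N * ((c - 1) * (2 * (3 / 4 * N))) ≤ N * N1 n (w m) :=
      mul_le_mul_of_nonneg_left hvar hN
    have hc1 : 1 ≤ c := by
      rw [hcdef]
      exact_mod_cast altLen_pos h.2.2
    nlinarith [mul_nonneg (mul_nonneg hN hN) (sub_nonneg.2 hc1)]
  · have e1 : wt (gW w) (nW w) [m] = 0 := by
      unfold wt
      rw [if_neg h]
    rw [e1]
    have := mul_nonneg hN hV
    nlinarith [sq_nonneg (nW w m)]

end Vale.Agent.P125.A32
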