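import Vale.Agent.P125.A32.Iid

set_option linter.unusedSectionVars false
set_option linter.unusedVariables false

/-!
# P125, (BV): the potential recursion (abstract form)

`mu l` is the weight of a window `l` (a list of marks), `c l` its integer complexity and `sg l` its
sign.  `Q m = E mu^2`, `Phi m = E mu^2 c` over windows of length `m`.
-/

namespace Vale.Agent.P125.A32

open scoped BigOperators
open Vale.Agent.P125.Dich Vale.Agent.P125.A32

variable {S M : Type} [Fintype S] [Fintype M] (C : MChain S M)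

/-- THE IID STEP, usable form: the sign has to be odd under reversal only on windows of nonzero
weight. -/
lemma iid_step2 (m : ℕ) (mu sg : List M → ℝ) (h0 : ∀ l, 0 ≤ mu l)
    (hmu : ∀ l, mu ((l.map C.inv).reverse) = mu l)
    (hsg1 : ∀ l, sg l = 1 ∨ sg l = -1)
    (hsg : ∀ l, mu l ≠ 0 → sg ((l.map C.inv).reverse) = - sg l) :
    C.E (m + m) (fun l => mu (l.take m) * mu (l.drop m) *
      (if sg (l.take m) = sg (l.drop m) then 1 else 0)) ≤ (1 / 2) * C.E m (fun l => mu l ^ 2) := by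
  have h1 : ∀ l : List M, mu (l.take m) * mu (l.drop m) *
      (if sg (l.take m) = sg (l.drop m) then (1 : ℝ) else 0) =
      (1 / 2) * (mu (l.take m) * mu (l.drop m)) +
        (1 / 2) * ((mu (l.take m) * sg (l.take m)) * (mu (l.drop m) * sg (l.drop m))) := by
    intro l
    rcases hsg1 (l.take m) with h | h <;> rcases hsg1 (l.drop m) with h' | h' <;>
      rw [h, h'] <;> norm_num <;> ring
  have h2 : C.E (m + m) (fun l => mu (l.take m) * mu (l.drop m) *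
      (if sg (l.take m) = sg (l.drop m) then 1 else 0)) =
      (1 / 2) * C.E (m + m) (fun l => mu (l.take m) * mu (l.drop m)) +
      (1 / 2) * C.E (m + m) (fun l => (mu (l.take m) * sg (l.take m)) *
        (mu (l.drop m) * sg (l.drop m))) := by
    rw [← E_const_mul, ← E_const_mul, ← E_add]
    apply E_congr
    intro l _
    exact h1 l
  have h3 := E_anti_le C m (fun l => mu l * sg l) (by
    intro l
    by_cases hl : mu l = 0
    · rw [hmu, hl]
      ring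
    · rw [hmu, hsg l hl]
      ring)
  have h4 := E_prod_le C m mu
  rw [h2]
  linarith

/-- the hypotheses on the triple (weight, complexity, sign) -/
structure Pot (mu : List M → ℝ) (c : List M → ℕ) (sg : List M → ℝ) : Prop where
  mu_nonneg : ∀ l, 0 ≤ mu l
  mu_left : ∀ l1 l2 : List M, l1 ≠ [] → l2 ≠ [] → mu (l1 ++ l2) ≤ mu l1
  mu_right : ∀ l1 l2 : List M, l1 ≠ [] → l2 ≠ [] → mu (l1 ++ l2) ≤ mu l2
  c_left : ∀ l1 l2 : List M, l1 ≠ [] → l2 ≠ [] → 0 < mu (l1 ++ l2) → c (l1 ++ l2) ≤ c l1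
  c_right : ∀ l1 l2 : List M, l1 ≠ [] → l2 ≠ [] → 0 < mu (l1 ++ l2) → c (l1 ++ l2) ≤ c l2
  sg_left : ∀ l1 l2 : List M, l1 ≠ [] → l2 ≠ [] → 0 < mu (l1 ++ l2) → c (l1 ++ l2) = c l1 →
    sg (l1 ++ l2) = sg l1
  sg_right : ∀ l1 l2 : List M, l1 ≠ [] → l2 ≠ [] → 0 < mu (l1 ++ l2) → c (l1 ++ l2) = c l2 →
    sg (l1 ++ l2) = sg l2
  mu_rev : ∀ l, mu ((l.map C.inv).reverse) = mu l
  sg_pm : ∀ l, sg l = 1 ∨ sg l = -1
  sg_rev : ∀ l, mu l ≠ 0 → sg ((l.map C.inv).reverse) = - sg l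

/-- `Q m = E mu^2` -/
noncomputable def Qm (mu : List M → ℝ) (m : ℕ) : ℝ := C.E m (fun l => mu l ^ 2)

/-- `Phi m = E mu^2 c` -/
noncomputable def Phim (mu : List M → ℝ) (c : List M → ℕ) (m : ℕ) : ℝ :=
  C.E m (fun l => mu l ^ 2 * (c l : ℝ))

lemma Qm_nonneg (mu : List M → ℝ) (m : ℕ) : 0 ≤ Qm C mu m :=
  E_nonneg C m _ fun l _ => sq_nonneg _

lemma Phim_nonneg (mu : List M → ℝ) (c : List M → ℕ) (m : ℕ) : 0 ≤ Phim C mu c m :=
  E_nonneg C m _ fun l _ => mul_nonneg (sq_nonneg _) (Nat.cast_nonneg _)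

/-- the pointwise inequality behind the recursion -/
lemma pot_pointwise {mu : List M → ℝ} {c : List M → ℕ} {sg : List M → ℝ} (H : Pot C mu c sg)
    (l1 l2 : List M) (h1 : l1 ≠ []) (h2 : l2 ≠ []) :
    mu (l1 ++ l2) ^ 2 * (c (l1 ++ l2) : ℝ) ≤
      (1 / 2) * (mu l1 ^ 2 * (c l1 : ℝ)) + (1 / 2) * (mu l2 ^ 2 * (c l2 : ℝ))
        + (-(1 / 2)) * mu (l1 ++ l2) ^ 2
        + (1 / 2) * (mu l1 * mu l2 * (if sg l1 = sg l2 then 1 else 0)) := by
  have a0 := H.mu_nonneg (l1 ++ l2)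
  have a1 := H.mu_nonneg l1
  have a2 := H.mu_nonneg l2
  have b1 := H.mu_left l1 l2 h1 h2
  have b2 := H.mu_right l1 l2 h1 h2
  have hi : (0 : ℝ) ≤ (if sg l1 = sg l2 then (1 : ℝ) else 0) := by
    split_ifs <;> norm_num
  have c1n : (0 : ℝ) ≤ (c l1 : ℝ) := Nat.cast_nonneg _
  have c2n : (0 : ℝ) ≤ (c l2 : ℝ) := Nat.cast_nonneg _
  have s1 : mu (l1 ++ l2) ^ 2 ≤ mu l1 ^ 2 := pow_le_pow_left₀ a0 b1 2
  have s2 : mu (l1 ++ l2) ^ 2 ≤ mu l2 ^ 2 := pow_le_pow_left₀ a0 b2 2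
  have s3 : mu (l1 ++ l2) ^ 2 ≤ mu l1 * mu l2 := by
    rw [pow_two]
    exact mul_le_mul b1 b2 a0 a1
  rcases a0.eq_or_lt with h0 | h0
  · rw [← h0]
    have t1 : 0 ≤ mu l1 ^ 2 * (c l1 : ℝ) := mul_nonneg (sq_nonneg _) c1n
    have t2 : 0 ≤ mu l2 ^ 2 * (c l2 : ℝ) := mul_nonneg (sq_nonneg _) c2n
    have t3 : 0 ≤ mu l1 * mu l2 * (if sg l1 = sg l2 then (1 : ℝ) else 0) :=
      mul_nonneg (mul_nonneg a1 a2) hi
    nlinarith
  · have d1 := H.c_left l1 l2 h1 h2 h0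
    have d2 := H.c_right l1 l2 h1 h2 h0
    have t1 : mu (l1 ++ l2) ^ 2 * (c l1 : ℝ) ≤ mu l1 ^ 2 * (c l1 : ℝ) :=
      mul_le_mul_of_nonneg_right s1 c1n
    have t2 : mu (l1 ++ l2) ^ 2 * (c l2 : ℝ) ≤ mu l2 ^ 2 * (c l2 : ℝ) :=
      mul_le_mul_of_nonneg_right s2 c2n
    have sq0 : 0 ≤ mu (l1 ++ l2) ^ 2 := sq_nonneg _
    by_cases hc : c (l1 ++ l2) = c l1 ∧ c (l1 ++ l2) = c l2
    · have e1 := H.sg_left l1 l2 h1 h2 h0 hc.1
      have e2 := H.sg_right l1 l2 h1 h2 h0 hc.2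
      have e3 : sg l1 = sg l2 := by rw [← e1, ← e2]
      rw [if_pos e3, mul_one]
      have f1 : (c (l1 ++ l2) : ℝ) = (c l1 : ℝ) := by rw [hc.1]
      have f2 : (c (l1 ++ l2) : ℝ) = (c l2 : ℝ) := by rw [hc.2]
      have g1 : mu (l1 ++ l2) ^ 2 * (c (l1 ++ l2) : ℝ)
          = (1 / 2) * (mu (l1 ++ l2) ^ 2 * (c l1 : ℝ))
            + (1 / 2) * (mu (l1 ++ l2) ^ 2 * (c l2 : ℝ)) := by
        rw [← f1, ← f2]
        ring
      rw [g1]
      linarith
    · have hlt : 2 * c (l1 ++ l2) + 1 ≤ c l1 + c l2 := by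
        by_contra hcon
        apply hc
        constructor <;> omega
      have hltR : 2 * (c (l1 ++ l2) : ℝ) + 1 ≤ (c l1 : ℝ) + (c l2 : ℝ) := by
        exact_mod_cast hlt
      have t3 : 0 ≤ mu l1 * mu l2 * (if sg l1 = sg l2 then (1 : ℝ) else 0) :=
        mul_nonneg (mul_nonneg a1 a2) hi
      have g2 : mu (l1 ++ l2) ^ 2 * (2 * (c (l1 ++ l2) : ℝ) + 1)
          ≤ mu (l1 ++ l2) ^ 2 * ((c l1 : ℝ) + (c l2 : ℝ)) :=
        mul_le_mul_of_nonneg_left hltR sq0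
      nlinarith

lemma take_ne_nil {m : ℕ} (hm : 1 ≤ m) {l : List M} (hl : l.length = m + m) : l.take m ≠ [] := by
  intro h
  have := congrArg List.length h
  rw [List.length_take, hl] at this
  simp at this
  omega

lemma drop_ne_nil {m : ℕ} (hm : 1 ≤ m) {l : List M} (hl : l.length = m + m) : l.drop m ≠ [] := by
  intro h
  have := congrArg List.length h
  rw [List.length_drop, hl] at this
  simp at this
  omega

/-- `Q` decreases under doubling -/
lemma Qm_double {mu : List M → ℝ} {c : List M → ℕ} {sg : List M → ℝ} (H : Pot C mu c sg)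
    (m : ℕ) (hm : 1 ≤ m) : Qm C mu (m + m) ≤ Qm C mu m := by
  unfold Qm
  rw [← E_take C m m (fun l => mu l ^ 2)]
  apply E_mono
  intro l hl
  have h1 := H.mu_left (l.take m) (l.drop m) (take_ne_nil hm hl) (drop_ne_nil hm hl)
  rw [List.take_append_drop] at h1
  exact pow_le_pow_left₀ (H.mu_nonneg l) h1 2

/-- THE POTENTIAL RECURSION -/
theorem Phim_double {mu : List M → ℝ} {c : List M → ℕ} {sg : List M → ℝ} (H : Pot C mu c sg)
    (m : ℕ) (hm : 1 ≤ m) :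
    Phim C mu c (m + m) ≤ Phim C mu c m - Qm C mu (m + m) / 2 + Qm C mu m / 4 := by
  have h1 : Phim C mu c (m + m) ≤ C.E (m + m) (fun l =>
      (1 / 2) * (mu (l.take m) ^ 2 * (c (l.take m) : ℝ))
        + (1 / 2) * (mu (l.drop m) ^ 2 * (c (l.drop m) : ℝ))
        + (-(1 / 2)) * mu l ^ 2
        + (1 / 2) * (mu (l.take m) * mu (l.drop m) *
            (if sg (l.take m) = sg (l.drop m) then 1 else 0))) := by
    unfold Phim
    apply E_mono
    intro l hl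
    have h2 := pot_pointwise C H (l.take m) (l.drop m) (take_ne_nil hm hl) (drop_ne_nil hm hl)
    rw [List.take_append_drop] at h2
    exact h2
  rw [E_add, E_add, E_add, E_const_mul, E_const_mul, E_const_mul, E_const_mul,
    E_take C m m (fun l => mu l ^ 2 * (c l : ℝ)), E_drop C m m (fun l => mu l ^ 2 * (c l : ℝ))]
    at h1
  have h3 := iid_step2 C m mu sg H.mu_nonneg H.mu_rev H.sg_pm H.sg_rev
  unfold Phim Qm at *
  linarith

/-- telescoping: `(L + 1) Q(2^L) ≤ 4 Phi(1) + Q(1)` -/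
theorem Qm_pow_le {mu : List M → ℝ} {c : List M → ℕ} {sg : List M → ℝ} (H : Pot C mu c sg)
    (L : ℕ) : ((L : ℝ) + 1) * Qm C mu (2 ^ L) ≤ 4 * Phim C mu c 1 + Qm C mu 1 := by
  have key : ∀ L : ℕ, ((L : ℝ) + 1) * Qm C mu (2 ^ L) + 4 * Phim C mu c (2 ^ L)
      ≤ 4 * Phim C mu c 1 + Qm C mu 1 := by
    intro L
    induction L with
    | zero =>
      simp only [pow_zero, Nat.cast_zero, zero_add, one_mul]
      linarith
    | succ L ih =>
      have e : 2 ^ (L + 1) = 2 ^ L + 2 ^ L := by ring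
      have hp : 1 ≤ 2 ^ L := Nat.one_le_two_pow
      have a1 := Phim_double C H (2 ^ L) hp
      have a2 := Qm_double C H (2 ^ L) hp
      rw [e]
      push_cast
      have hL : (0 : ℝ) ≤ (L : ℝ) := Nat.cast_nonneg _
      nlinarith [mul_le_mul_of_nonneg_left a2 hL]
  have := key L
  have h2 := Phim_nonneg C mu c (2 ^ L)
  linarith

end Vale.Agent.P125.A32
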